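import Vale.Agent.Lib.P068.Defs

namespace Vale.Agent.Lib.P068

open Set

variable {α : Type*} {M N : Matroid α}

lemma closure_exchange_eq {M : Matroid α} {I : Set α} {e f : α} (hf : f ∈ I)
    (he : e ∈ M.closure I) (he' : e ∉ M.closure (I \ {f})) :
    M.closure (insert e (I \ {f})) = M.closure I := by
  have h1 : insert f (I \ {f}) = I := insert_sdiff_self_of_mem hf
  have h2 : e ∈ M.closure (insert f (I \ {f})) \ M.closure (I \ {f}) := by
    rw [h1]; exact ⟨he, he'⟩
  rw [Matroid.closure_insert_congr h2, h1]

lemma notMem_closure_insert_of {M : Matroid α} {X I : Set α} {e f : α} (hI : M.Indep I)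
    (hXI : X ⊆ I) (he : e ∈ M.closure I) (he' : e ∉ M.closure X) (hf : f ∉ M.closure I) :
    e ∉ M.closure (insert f X) := by
  intro h
  have h1 : f ∈ M.closure (insert e X) := Matroid.mem_closure_insert he' h
  have h2 : M.closure (insert e X) ⊆ M.closure I := by
    apply Matroid.closure_subset_closure_of_subset_closure
    intro z hz
    rcases hz with rfl | hz
    · exact he
    · exact M.subset_closure I hI.subset_ground (hXI hz)
  exact hf (h2 h1)

/-- Augmentation along a walk with triangular (no shortcut) structure. -/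
theorem aug (m : ℕ) : ∀ (J : Set α) (x y : ℕ → α), M.Indep J → N.Indep J →
    x 0 ∈ M.E \ M.closure J → x m ∈ N.E \ N.closure J →
    (∀ i, i < m → y i ∈ J) →
    (∀ i, i < m → x i ∈ N.closure J ∧ x i ∉ N.closure (J \ {y i})) →
    (∀ i j, i < j → j < m → x i ∈ N.closure (J \ {y j})) →
    (∀ i, i < m → x (i + 1) ∈ M.closure J ∧ x (i + 1) ∉ M.closure (J \ {y i})) →
    (∀ i j, i < j → j < m → x (j + 1) ∈ M.closure (J \ {y i})) →
    ∃ J' : Set α, M.Indep J' ∧ N.Indep J' ∧ M.closure J' = M.closure (insert (x 0) J) ∧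
      (J.Finite → J'.Finite ∧ J'.ncard = J.ncard + 1) := by
  induction m with
  | zero =>
    intro J x y hJM hJN h0 hm _ _ _ _ _
    have hxJ : x 0 ∉ J := fun h => h0.2 (M.subset_closure J hJM.subset_ground h)
    refine ⟨insert (x 0) J, ?_, ?_, rfl,
      fun hfin => ⟨hfin.insert _, ncard_insert_of_notMem hxJ hfin⟩⟩
    · rw [hJM.insert_indep_iff_of_notMem hxJ]; exact h0
    · rw [hJN.insert_indep_iff_of_notMem hxJ]; exact hm
  | succ m ih =>
    intro J x y hJM hJN h0 hm hy hN hN' hM hM'
    set e := x (m + 1) with he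
    set f := y m with hf
    have hfJ : f ∈ J := hy m (Nat.lt_succ_self m)
    have heJ : e ∉ J := fun h => hm.2 (N.subset_closure J hJN.subset_ground h)
    have heM : e ∈ M.closure J := (hM m (Nat.lt_succ_self m)).1
    have heM' : e ∉ M.closure (J \ {f}) := (hM m (Nat.lt_succ_self m)).2
    set J₁ := insert e (J \ {f}) with hJ₁
    have hne : ∀ i, i < m → y i ≠ f := by
      intro i hi h
      have := hM' i m hi (Nat.lt_succ_self m)
      rw [h] at this
      exact heM' this
    have hJ₁M : M.Indep J₁ := by
      rw [(hJM.subset sdiff_subset).insert_indep_iff_of_notMem (fun h => heJ h.1)]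
      exact ⟨M.closure_subset_ground _ heM, heM'⟩
    have hJ₁N : N.Indep J₁ := by
      rw [(hJN.subset sdiff_subset).insert_indep_iff_of_notMem (fun h => heJ h.1)]
      exact ⟨hm.1, fun h => hm.2 (N.closure_subset_closure sdiff_subset h)⟩
    have hclM : M.closure J₁ = M.closure J := closure_exchange_eq hfJ heM heM'
    have hcard : J.Finite → J₁.ncard = J.ncard := by
      intro hfin
      rw [hJ₁, ncard_insert_of_notMem (fun h => heJ h.1) (hfin.sdiff),
        ncard_sdiff_singleton_add_one hfJ hfin]
    -- shape of `J₁ \ {y i}`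
    have hshape : ∀ i, i < m → J₁ \ {y i} = insert e ((J \ {y i}) \ {f}) := by
      intro i hi
      have hyi : y i ∈ J := hy i (Nat.lt_succ_of_lt hi)
      have hey : e ≠ y i := fun h => heJ (h ▸ hyi)
      ext z
      simp only [hJ₁, mem_sdiff, mem_insert_iff, mem_singleton_iff]
      constructor
      · rintro ⟨rfl | ⟨h1, h2⟩, h3⟩
        · exact Or.inl rfl
        · exact Or.inr ⟨⟨h1, h3⟩, h2⟩
      · rintro (rfl | ⟨⟨h1, h3⟩, h2⟩)
        · exact ⟨Or.inl rfl, hey⟩
        · exact ⟨Or.inr ⟨h1, h2⟩, h3⟩
    have hclM' : ∀ i, i < m → M.closure (J₁ \ {y i}) = M.closure (J \ {y i}) := by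
      intro i hi
      rw [hshape i hi]
      apply closure_exchange_eq
      · exact ⟨hfJ, fun h => hne i hi h.symm⟩
      · exact hM' i m hi (Nat.lt_succ_self m)
      · intro h
        apply heM'
        refine M.closure_subset_closure ?_ h
        intro z hz
        exact ⟨hz.1.1, hz.2⟩
    obtain ⟨J', h1, h2, h3, h4⟩ := ih J₁ x y hJ₁M hJ₁N
      (by rw [hclM]; exact h0)
      (by
        have hx := hN m (Nat.lt_succ_self m)
        exact ⟨N.closure_subset_ground _ hx.1,
          notMem_closure_insert_of hJN sdiff_subset hx.1 hx.2 hm.2⟩)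
      (by
        intro i hi
        exact mem_insert_of_mem _ ⟨hy i (Nat.lt_succ_of_lt hi), hne i hi⟩)
      (by
        intro i hi
        have hx := hN i (Nat.lt_succ_of_lt hi)
        refine ⟨?_, ?_⟩
        · exact N.closure_subset_closure (subset_insert _ _) (hN' i m hi (Nat.lt_succ_self m))
        · rw [hshape i hi]
          refine notMem_closure_insert_of hJN (fun z hz => hz.1.1) hx.1 ?_ hm.2
          intro h
          exact hx.2 (N.closure_subset_closure sdiff_subset h))
      (by
        intro i j hij hj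
        have ha := hN' i j hij (Nat.lt_succ_of_lt hj)
        have hb := hN' i m (lt_trans hij hj) (Nat.lt_succ_self m)
        have hind : N.Indep ((J \ {y j}) ∪ (J \ {f})) :=
          hJN.subset (union_subset sdiff_subset sdiff_subset)
        have hc : x i ∈ N.closure ((J \ {y j}) ∩ (J \ {f})) := by
          rw [hind.closure_inter_eq_inter_closure]; exact ⟨ha, hb⟩
        refine N.closure_subset_closure ?_ hc
        rintro z ⟨hz1, hz2⟩
        exact ⟨mem_insert_of_mem _ hz2, hz1.2⟩)
      (by
        intro i hi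
        have hx := hM i (Nat.lt_succ_of_lt hi)
        rw [hclM, hclM' i hi]
        exact hx)
      (by
        intro i j hij hj
        rw [hclM' i (lt_trans hij hj)]
        exact hM' i j hij (Nat.lt_succ_of_lt hj))
    refine ⟨J', h1, h2, ?_, ?_⟩
    · rw [h3]
      exact Matroid.closure_insert_congr_right hclM
    · intro hfin
      obtain ⟨h5, h6⟩ := h4 (hfin.sdiff.insert _)
      exact ⟨h5, by rw [h6, hcard hfin]⟩

end Vale.Agent.Lib.P068
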