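import Vale.Agent.Lib.P068.Defs

namespace Vale.Agent.Lib.P068

open Set

variable {α : Type*} {M N : Matroid α} {I J : Set α} {x : α}

lemma mem_closure_inter_of_forall (hI : M.Indep I) (hx : x ∈ M.closure I) (S : Set α)
    (h : ∀ y ∈ I \ S, x ∈ M.closure (I \ {y})) : x ∈ M.closure (I ∩ S) := by
  classical
  set Js : Set (Set α) := insert I ((fun y => I \ {y}) '' (I \ S)) with hJs
  have hne : Js.Nonempty := ⟨I, mem_insert _ _⟩
  have hsub : ∀ K ∈ Js, K ⊆ I := by
    intro K hK
    rcases hK with rfl | ⟨y, -, rfl⟩
    · exact Subset.rfl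
    · exact sdiff_subset
  have hint : ⋂₀ Js = I ∩ S := by
    ext z
    constructor
    · intro hz
      have hzI : z ∈ I := hz I (mem_insert _ _)
      refine ⟨hzI, ?_⟩
      by_contra hzS
      have := hz (I \ {z}) (mem_insert_of_mem _ ⟨z, ⟨hzI, hzS⟩, rfl⟩)
      exact this.2 rfl
    · rintro ⟨hzI, hzS⟩ K hK
      rcases hK with rfl | ⟨y, hy, rfl⟩
      · exact hzI
      · refine ⟨hzI, ?_⟩
        rintro rfl
        exact hy.2 hzS
  rw [← hint, hI.closure_sInter_eq_biInter_closure_of_forall_subset hne hsub]
  simp only [mem_iInter]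
  intro K hK
  rcases hK with rfl | ⟨y, hy, rfl⟩
  · exact hx
  · exact h y hy

/-- A common independent set without augmenting walk certifies intersection. -/
theorem satisfiesIntersection_of_no_walk (hE : M.E = N.E) (hJM : M.Indep J) (hJN : N.Indep J)
    (hno : ¬ HasAugmentingWalk M N J) : SatisfiesIntersection M N := by
  classical
  set U : Set α := {t | ∃ s ∈ M.E \ M.closure J, Relation.ReflTransGen (Arc M N J) s t} with hU
  have hUarc : ∀ a b, a ∈ U → Arc M N J a b → b ∈ U := by
    rintro a b ⟨s, hs, hsa⟩ hab
    exact ⟨s, hs, hsa.tail hab⟩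
  refine ⟨J \ U, J ∩ U, ?_, ?_, ?_, ?_⟩
  · exact disjoint_left.2 fun z hz hz' => hz.2 hz'.2
  · rwa [sdiff_union_inter]
  · rwa [sdiff_union_inter]
  · apply subset_antisymm
    · apply union_subset (M.closure_subset_ground _)
      rw [hE]
      exact N.closure_subset_ground _
    · intro z hzE
      by_cases hzU : z ∈ U
      · right
        have hzcl : z ∈ N.closure J := by
          by_contra hz
          obtain ⟨s, hs, hsz⟩ := hzU
          exact hno ⟨s, hs, z, ⟨hE ▸ hzE, hz⟩, hsz⟩
        apply mem_closure_inter_of_forall hJN hzcl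
        intro y hy
        by_cases hzJ : z ∈ J
        · have hne : z ≠ y := by
            rintro rfl
            exact hy.2 hzU
          exact N.mem_closure_of_mem' ⟨hzJ, hne⟩ (hE ▸ hzE)
        · by_contra hz
          have hind : N.Indep (insert z (J \ {y})) := by
            rw [(hJN.subset sdiff_subset).insert_indep_iff_of_notMem (fun h => hzJ h.1)]
            exact ⟨hE ▸ hzE, hz⟩
          exact hy.2 (hUarc z y hzU (Or.inr ⟨hzJ, hy.1, hind⟩))
      · left
        have hzcl : z ∈ M.closure J := by
          by_contra hz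
          exact hzU ⟨z, ⟨hzE, hz⟩, Relation.ReflTransGen.refl⟩
        have : J \ U = J ∩ Uᶜ := rfl
        rw [this]
        apply mem_closure_inter_of_forall hJM hzcl
        intro y hy
        have hyU : y ∈ U := by
          by_contra h
          exact hy.2 h
        by_cases hzJ : z ∈ J
        · have hne : z ≠ y := by
            rintro rfl
            exact hzU hyU
          exact M.mem_closure_of_mem' ⟨hzJ, hne⟩ hzE
        · by_contra hz
          have hind : M.Indep (insert z (J \ {y})) := by
            rw [(hJM.subset sdiff_subset).insert_indep_iff_of_notMem (fun h => hzJ h.1)]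
            exact ⟨hzE, hz⟩
          exact hzU (hUarc y z hyU (Or.inl ⟨hy.1, hzJ, hind⟩))

end Vale.Agent.Lib.P068
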