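import Mathlib

/-!
Definitions for the matroid intersection problem for (possibly infinite) matroids.
Mathlib's `Matroid` is the class of matroids in the sense of
Bruhn, Diestel, Kriesell, Pendavingh and Wollan.
-/

namespace Vale.Agent.Lib.P068

variable {α : Type*}

/-- The pair `(M, N)` satisfies intersection: some set independent in both matroids splits into
two disjoint parts `JM`, `JN` with `cl_M JM ∪ cl_N JN` equal to the ground set. -/
def SatisfiesIntersection (M N : Matroid α) : Prop :=
  ∃ JM JN : Set α, Disjoint JM JN ∧ M.Indep (JM ∪ JN) ∧ N.Indep (JM ∪ JN) ∧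
    M.closure JM ∪ N.closure JN = M.E

/-- Arcs of the exchange digraph of a set `J`: `a → b` if `a ∈ J`, `b ∉ J` and `J - a + b` is
independent in `M`, or `a ∉ J`, `b ∈ J` and `J - b + a` is independent in `N`. -/
def Arc (M N : Matroid α) (J : Set α) (a b : α) : Prop :=
  (a ∈ J ∧ b ∉ J ∧ M.Indep (insert b (J \ {a}))) ∨
    (a ∉ J ∧ b ∈ J ∧ N.Indep (insert a (J \ {b})))

/-- `J` has an augmenting walk: a directed walk in the exchange digraph from an element outside
`cl_M J` to an element outside `cl_N J`. -/
def HasAugmentingWalk (M N : Matroid α) (J : Set α) : Prop :=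
  ∃ s ∈ M.E \ M.closure J, ∃ t ∈ N.E \ N.closure J, Relation.ReflTransGen (Arc M N J) s t

end Vale.Agent.Lib.P068
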