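import Vale.Agent.Lib.P068.Augment

namespace Vale.Agent.Lib.P068

open Set

variable {α : Type*} {M N : Matroid α} {J : Set α}

/-- Walks given by functions on the naturals. -/
def IsWalk (M N : Matroid α) (J : Set α) (w : ℕ → α) (T : ℕ) : Prop :=
  w 0 ∈ M.E \ M.closure J ∧ (∀ s, s < T → Arc M N J (w s) (w (s + 1))) ∧
    w T ∈ N.E \ N.closure J

lemma exists_fun_of_reflTransGen {r : α → α → Prop} {a b : α}
    (h : Relation.ReflTransGen r a b) :
    ∃ (T : ℕ) (w : ℕ → α), w 0 = a ∧ w T = b ∧ ∀ s, s < T → r (w s) (w (s + 1)) := by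
  induction h with
  | refl => exact ⟨0, fun _ => a, rfl, rfl, fun s hs => absurd hs (Nat.not_lt_zero s)⟩
  | @tail b c _ hbc ih =>
    obtain ⟨T, w, h0, hT, hw⟩ := ih
    refine ⟨T + 1, fun s => if s ≤ T then w s else c, ?_, ?_, ?_⟩
    · simp [h0]
    · simp
    · intro s hs
      have hs' : s ≤ T := Nat.lt_succ_iff.1 hs
      by_cases hsT : s + 1 ≤ T
      · simp only [hs', hsT, if_true]
        exact hw s hsT
      · have : s = T := by omega
        subst this
        simp only [le_refl, if_true, hsT, if_false]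
        rw [hT]; exact hbc

lemma Arc.mem_iff {a b : α} (h : Arc M N J a b) : a ∈ J ↔ b ∉ J := by
  rcases h with ⟨h1, h2, -⟩ | ⟨h1, h2, -⟩
  · exact ⟨fun _ => h2, fun _ => h1⟩
  · exact ⟨fun h => absurd h h1, fun h => absurd h2 h⟩

theorem exists_larger_of_walk (hJM : M.Indep J) (hJN : N.Indep J)
    (h : HasAugmentingWalk M N J) :
    ∃ J' : Set α, M.Indep J' ∧ N.Indep J' ∧
      (∃ e ∈ M.E \ M.closure J, M.closure J' = M.closure (insert e J)) ∧
      (J.Finite → J'.Finite ∧ J'.ncard = J.ncard + 1) := by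
  classical
  have hP : ∃ T, ∃ w, IsWalk M N J w T := by
    obtain ⟨s, hs, t, ht, hst⟩ := h
    obtain ⟨T, w, h0, hT, hw⟩ := exists_fun_of_reflTransGen hst
    exact ⟨T, w, h0 ▸ hs, hw, hT ▸ ht⟩
  set T := Nat.find hP with hTdef
  obtain ⟨w, hw0, hw, hwT⟩ := Nat.find_spec hP
  have hmin : ∀ T', T' < T → ∀ w', ¬ IsWalk M N J w' T' := by
    intro T' hT' w' hw'
    exact Nat.find_min hP hT' ⟨w', hw'⟩
  -- (i)
  have h1 : ∀ s, 0 < s → s ≤ T → w s ∉ M.E \ M.closure J := by
    intro s hs hsT hmem
    refine hmin (T - s) (by omega) (fun t => w (t + s)) ⟨by simpa using hmem, ?_, ?_⟩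
    · intro t ht
      have := hw (t + s) (by omega)
      have e : t + 1 + s = t + s + 1 := by omega
      simp only [e]
      exact this
    · have e : T - s + s = T := by omega
      simp only [e]
      exact hwT
  -- (ii)
  have h2 : ∀ s, s < T → w s ∉ N.E \ N.closure J := by
    intro s hs hmem
    exact hmin s hs w ⟨hw0, fun t ht => hw t (lt_trans ht hs), hmem⟩
  -- (iii)
  have h3 : ∀ i j, i + 1 < j → j ≤ T → ¬ Arc M N J (w i) (w j) := by
    intro i j hij hjT harc
    refine hmin (T - (j - i - 1)) (by omega)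
      (fun t => if t ≤ i then w t else w (t + (j - i - 1))) ⟨?_, ?_, ?_⟩
    · simpa using hw0
    · intro t ht
      by_cases hti : t + 1 ≤ i
      · have hti' : t ≤ i := by omega
        simp only [hti, hti', if_true]
        exact hw t (by omega)
      · by_cases hti' : t ≤ i
        · have : t = i := by omega
          subst this
          simp only [le_refl, if_true, hti, if_false]
          have e : t + 1 + (j - t - 1) = j := by omega
          rw [e]; exact harc
        · simp only [hti, hti', if_false]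
          have e : t + 1 + (j - i - 1) = t + (j - i - 1) + 1 := by omega
          rw [e]
          exact hw _ (by omega)
    · have hn : ¬ (T - (j - i - 1) ≤ i) := by omega
      simp only [hn, if_false]
      have e : T - (j - i - 1) + (j - i - 1) = T := by omega
      rw [e]; exact hwT
  -- parity
  have hpar : ∀ s, s ≤ T → (w s ∈ J ↔ s % 2 = 1) := by
    intro s
    induction s with
    | zero =>
      intro _
      constructor
      · intro hmem
        exact absurd (M.subset_closure J hJM.subset_ground hmem) hw0.2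
      · intro h; omega
    | succ s ih =>
      intro hs
      have ih' := ih (by omega)
      have harc := (hw s (by omega)).mem_iff
      constructor
      · intro hmem
        have : w s ∉ J := fun h => (harc.1 h) hmem
        have : ¬ (s % 2 = 1) := fun h => this (ih'.2 h)
        omega
      · intro hodd
        by_contra hmem
        have : w s ∈ J := harc.2 hmem
        have := ih'.1 this
        omega
  have hTJ : w T ∉ J := fun hmem => hwT.2 (N.subset_closure J hJN.subset_ground hmem)
  have hTeven : T % 2 = 0 := by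
    have := (hpar T le_rfl).not.1 hTJ
    omega
  obtain ⟨m, hm⟩ : ∃ m, T = 2 * m := ⟨T / 2, by omega⟩
  have hxJ : ∀ i, 2 * i ≤ T → w (2 * i) ∉ J := by
    intro i hi hmem
    have := (hpar _ hi).1 hmem
    omega
  have hyJ : ∀ i, 2 * i + 1 ≤ T → w (2 * i + 1) ∈ J := by
    intro i hi
    exact (hpar _ hi).2 (by omega)
  -- arcs unpacked
  have hNarc : ∀ i j, 2 * i ≤ T → 2 * j + 1 ≤ T →
      (Arc M N J (w (2 * i)) (w (2 * j + 1)) ↔
        w (2 * i) ∈ N.E \ N.closure (J \ {w (2 * j + 1)})) := by
    intro i j hi hj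
    have hx := hxJ i hi
    have hy := hyJ j hj
    rw [← (hJN.subset sdiff_subset).insert_indep_iff_of_notMem (fun h => hx h.1)]
    constructor
    · rintro (⟨h, -, -⟩ | ⟨-, -, h⟩)
      · exact absurd h hx
      · exact h
    · intro h
      exact Or.inr ⟨hx, hy, h⟩
  have hMarc : ∀ i j, 2 * i + 1 ≤ T → 2 * j ≤ T →
      (Arc M N J (w (2 * i + 1)) (w (2 * j)) ↔
        w (2 * j) ∈ M.E \ M.closure (J \ {w (2 * i + 1)})) := by
    intro i j hi hj
    have hx := hxJ j hj
    have hy := hyJ i hi
    rw [← (hJM.subset sdiff_subset).insert_indep_iff_of_notMem (fun h => hx h.1)]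
    constructor
    · rintro (⟨-, -, h⟩ | ⟨h, -, -⟩)
      · exact h
      · exact absurd hy h
    · intro h
      exact Or.inl ⟨hy, hx, h⟩
  have hNE : ∀ i, i < m → w (2 * i) ∈ N.E := by
    intro i hi
    exact ((hNarc i i (by omega) (by omega)).1 (hw (2 * i) (by omega))).1
  have hME : ∀ i, i < m → w (2 * (i + 1)) ∈ M.E := by
    intro i hi
    exact ((hMarc i (i + 1) (by omega) (by omega)).1 (hw (2 * i + 1) (by omega))).1
  suffices hs : ∃ J' : Set α, M.Indep J' ∧ N.Indep J' ∧
      M.closure J' = M.closure (insert (w (2 * 0)) J) ∧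
      (J.Finite → J'.Finite ∧ J'.ncard = J.ncard + 1) by
    obtain ⟨J', a1, a2, a3, a4⟩ := hs
    exact ⟨J', a1, a2, ⟨w (2 * 0), by simpa using hw0, a3⟩, a4⟩
  refine aug (M := M) (N := N) m J (fun i => w (2 * i)) (fun i => w (2 * i + 1)) hJM hJN
    (by simpa using hw0) (by simpa [← hm] using hwT) ?_ ?_ ?_ ?_ ?_
  · intro i hi
    exact hyJ i (by omega)
  · intro i hi
    refine ⟨?_, ?_⟩
    · by_contra hcl
      exact h2 (2 * i) (by omega) ⟨hNE i hi, hcl⟩
    · exact ((hNarc i i (by omega) (by omega)).1 (hw (2 * i) (by omega))).2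
  · intro i j hij hj
    by_contra hcl
    exact h3 (2 * i) (2 * j + 1) (by omega) (by omega)
      ((hNarc i j (by omega) (by omega)).2 ⟨hNE i (by omega), hcl⟩)
  · intro i hi
    refine ⟨?_, ?_⟩
    · by_contra hcl
      exact h1 (2 * (i + 1)) (by omega) (by omega) ⟨hME i hi, hcl⟩
    · exact ((hMarc i (i + 1) (by omega) (by omega)).1 (hw (2 * i + 1) (by omega))).2
  · intro i j hij hj
    by_contra hcl
    exact h3 (2 * i + 1) (2 * (j + 1)) (by omega) (by omega)
      ((hMarc i (j + 1) (by omega) (by omega)).2 ⟨hME j hj, hcl⟩)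

end Vale.Agent.Lib.P068
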