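import Vale.Agent.Lib.P068.Certificate
import Vale.Agent.Lib.P068.Walk

namespace Vale.Agent.Lib.P068

open Set

variable {α : Type*} {M N : Matroid α}

/-- Steinitz type exchange against a finite set. -/
lemma exists_exchange (M : Matroid α) (X : Set α) {F : Set α} (hF : F.Finite) {e : α}
    (he : e ∈ M.closure (X ∪ F)) (heX : e ∉ M.closure X) :
    ∃ f ∈ F, f ∈ M.closure (insert e (X ∪ (F \ {f}))) := by
  classical
  induction F, hF using Set.Finite.induction_on with
  | empty => simp at he; exact absurd he heX
  | @insert a F₀ ha _ ih =>
    by_cases h : e ∈ M.closure (X ∪ F₀)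
    · obtain ⟨f, hf, hfc⟩ := ih h
      refine ⟨f, mem_insert_of_mem _ hf, M.closure_subset_closure ?_ hfc⟩
      apply insert_subset_insert
      apply union_subset_union_right
      exact sdiff_subset_sdiff_left (subset_insert _ _)
    · refine ⟨a, mem_insert _ _, ?_⟩
      have h1 : e ∈ M.closure (insert a (X ∪ F₀)) := by
        rwa [union_insert] at he
      have h2 := M.mem_closure_insert h h1
      have h3 : insert a F₀ \ {a} = F₀ := by
        ext z
        simp only [mem_sdiff, mem_insert_iff, mem_singleton_iff]
        constructor
        · rintro ⟨rfl | hz, hne⟩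
          · exact absurd rfl hne
          · exact hz
        · intro hz
          exact ⟨Or.inr hz, fun h => ha (h ▸ hz)⟩
      rw [h3]
      exact h2

/-- If some common independent set spans `M` up to finitely many elements, then the pair satisfies
intersection. -/
theorem satisfiesIntersection_of_almost_spanning (hE : M.E = N.E) (n : ℕ) :
    ∀ (J F : Set α), M.Indep J → N.Indep J → F.Finite → F ⊆ M.E → F.ncard ≤ n →
      M.E ⊆ M.closure (J ∪ F) → SatisfiesIntersection M N := by
  classical
  induction n with
  | zero =>
    intro J F hJM hJN hF hFE hn hsp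
    have hF0 : F = ∅ := by
      have : F.ncard = 0 := by omega
      exact (Set.ncard_eq_zero hF).1 this
    subst hF0
    apply satisfiesIntersection_of_no_walk hE hJM hJN
    rintro ⟨s, hs, -⟩
    apply hs.2
    have := hsp hs.1
    simpa using this
  | succ n ih =>
    intro J F hJM hJN hF hFE hn hsp
    by_cases hw : HasAugmentingWalk M N J
    · obtain ⟨J', hJ'M, hJ'N, ⟨e, he, hcl⟩, -⟩ := exists_larger_of_walk hJM hJN hw
      obtain ⟨f, hfF, hf⟩ := exists_exchange M J hF (hsp he.1) he.2
      refine ih J' (F \ {f}) hJ'M hJ'N (hF.subset sdiff_subset) (sdiff_subset.trans hFE) ?_ ?_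
      · have := Set.ncard_sdiff_singleton_lt_of_mem hfF hF
        omega
      · have h1 : M.closure (J' ∪ (F \ {f})) = M.closure (insert e (J ∪ (F \ {f}))) := by
          rw [← M.closure_union_closure_left_eq, hcl, M.closure_union_closure_left_eq,
            insert_union]
        rw [h1]
        refine hsp.trans ?_
        apply M.closure_subset_closure_of_subset_closure
        intro z hz
        by_cases hzf : z = f
        · rw [hzf]; exact hf
        · have hzE : z ∈ M.E := by
            rcases hz with hz | hz
            · exact hJM.subset_ground hz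
            · exact hFE hz
          apply M.mem_closure_of_mem' _ hzE
          rcases hz with hz | hz
          · exact mem_insert_of_mem _ (Or.inl hz)
          · exact mem_insert_of_mem _ (Or.inr ⟨hz, hzf⟩)
    · exact satisfiesIntersection_of_no_walk hE hJM hJN hw

lemma SatisfiesIntersection.symm (hE : M.E = N.E) (h : SatisfiesIntersection M N) :
    SatisfiesIntersection N M := by
  obtain ⟨JM, JN, hd, hM, hN, hcl⟩ := h
  refine ⟨JN, JM, hd.symm, ?_, ?_, ?_⟩
  · rwa [union_comm]
  · rwa [union_comm]
  · rw [union_comm, hcl, hE]

/-- If a base of `M` is contained, up to finitely many elements, in a base of `N`, then the pair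
satisfies intersection. -/
theorem satisfiesIntersection_of_isBase_sdiff_finite (hE : M.E = N.E) {B B' : Set α}
    (hB : M.IsBase B) (hB' : N.IsBase B') (hfin : (B \ B').Finite) :
    SatisfiesIntersection M N := by
  refine satisfiesIntersection_of_almost_spanning hE _ (B ∩ B') (B \ B')
    (hB.indep.subset inter_subset_left) (hB'.indep.subset inter_subset_right) hfin
    (sdiff_subset.trans hB.subset_ground) le_rfl ?_
  rw [inter_union_sdiff, hB.closure_eq]

theorem satisfiesIntersection_of_isBase_sdiff_finite' (hE : M.E = N.E) {B B' : Set α}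
    (hB : M.IsBase B) (hB' : N.IsBase B') (hfin : (B' \ B).Finite) :
    SatisfiesIntersection M N :=
  (satisfiesIntersection_of_isBase_sdiff_finite hE.symm hB' hB hfin).symm hE.symm

theorem satisfiesIntersection_of_rankFinite (hE : M.E = N.E) [M.RankFinite] :
    SatisfiesIntersection M N := by
  obtain ⟨B, hB⟩ := M.exists_isBase
  obtain ⟨B', hB'⟩ := N.exists_isBase
  exact satisfiesIntersection_of_isBase_sdiff_finite hE hB hB' (hB.finite.subset sdiff_subset)

theorem satisfiesIntersection_of_dual_rankFinite (hE : M.E = N.E) [M✶.RankFinite] :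
    SatisfiesIntersection M N := by
  obtain ⟨B, hB⟩ := M.exists_isBase
  obtain ⟨B', hB'⟩ := N.exists_isBase
  refine satisfiesIntersection_of_isBase_sdiff_finite' hE hB hB'
    (hB.compl_isBase_dual.finite.subset ?_)
  exact sdiff_subset_sdiff_left (hE ▸ hB'.subset_ground)

/-- A witness of intersection has no augmenting walk. -/
theorem not_hasAugmentingWalk_of_witness {JM JN : Set α} (hd : Disjoint JM JN)
    (hcl : M.closure JM ∪ N.closure JN = M.E) : ¬ HasAugmentingWalk M N (JM ∪ JN) := by
  classical
  rintro ⟨s, hs, t, ht, hst⟩
  have hcov : ∀ z, z ∈ M.E → z ∉ M.closure JM → z ∈ N.closure JN := by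
    intro z hz hzM
    have : z ∈ M.closure JM ∪ N.closure JN := hcl ▸ hz
    exact this.resolve_left hzM
  -- invariant
  have key : ∀ z, Relation.ReflTransGen (Arc M N (JM ∪ JN)) s z →
      (z ∈ JN ∨ (z ∉ JM ∪ JN ∧ z ∈ M.E ∧ z ∉ M.closure JM)) := by
    intro z hz
    induction hz with
    | refl =>
      right
      refine ⟨fun h => hs.2 (M.mem_closure_of_mem' h hs.1), hs.1, fun h => hs.2 ?_⟩
      exact M.closure_subset_closure subset_union_left h
    | @tail a b _ hab ih =>
      rcases hab with ⟨haJ, hbJ, hind⟩ | ⟨haJ, hbJ, hind⟩
      · -- a in J, b outside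
        right
        have haN : a ∈ JN := by
          rcases ih with h | h
          · exact h
          · exact absurd haJ h.1
        have hbE : b ∈ M.E := hind.subset_ground (mem_insert _ _)
        refine ⟨hbJ, hbE, fun hb => ?_⟩
        have haM : a ∉ JM := fun haM => (disjoint_left.1 hd haM) haN
        apply hind.notMem_closure_sdiff_of_mem (mem_insert _ _)
        refine M.closure_subset_closure ?_ hb
        intro z hz
        refine ⟨mem_insert_of_mem _ ⟨Or.inl hz, fun h => haM (h ▸ hz)⟩, fun h => hbJ ?_⟩
        rw [mem_singleton_iff] at h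
        exact h ▸ Or.inl hz
      · left
        have ha : a ∈ N.closure JN := by
          rcases ih with h | h
          · exact absurd (Or.inr h) haJ
          · exact hcov a h.2.1 h.2.2
        by_contra hbN
        apply hind.notMem_closure_sdiff_of_mem (mem_insert _ _)
        refine N.closure_subset_closure ?_ ha
        intro z hz
        refine ⟨mem_insert_of_mem _ ⟨Or.inr hz, fun h => hbN (h ▸ hz)⟩, fun h => haJ ?_⟩
        rw [mem_singleton_iff] at h
        exact h ▸ Or.inr hz
  apply ht.2
  rcases key t hst with h | h
  · exact N.mem_closure_of_mem' (Or.inr h) ht.1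
  · exact N.closure_subset_closure subset_union_right (hcov t h.2.1 h.2.2)

/-- Intersection holds exactly if some common independent set has no augmenting walk. -/
theorem satisfiesIntersection_iff (hE : M.E = N.E) :
    SatisfiesIntersection M N ↔
      ∃ J, M.Indep J ∧ N.Indep J ∧ ¬ HasAugmentingWalk M N J := by
  constructor
  · rintro ⟨JM, JN, hd, hM, hN, hcl⟩
    exact ⟨JM ∪ JN, hM, hN, not_hasAugmentingWalk_of_witness hd hcl⟩
  · rintro ⟨J, hM, hN, hno⟩
    exact satisfiesIntersection_of_no_walk hE hM hN hno

end Vale.Agent.Lib.P068
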